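import Vale.Agent.P333.Four
import Vale.Agent.P333.Exists

namespace Vale.Agent.Results.P333.GreedyFourStrings

open Vale.Agent.P333

theorem result {α : Type*} [DecidableEq α] (S : Finset (List α)) (hS : (discard S).card ≤ 4) :
    (S.Nonempty → ∃ T, IsGreedyOutput S T) ∧
      ∀ T, IsGreedyOutput S T → IsCommonSuperstring S T ∧ T.length ≤ 2 * OPT S := by
  refine ⟨exists_greedyOutput, fun T hT => ?_⟩
  have hff := factorFree_discard S
  have hsup : IsCommonSuperstring S T := superstring_of_discard (run_facts hT hff).2
  refine ⟨hsup, ?_⟩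
  have hne : {n | ∃ U : List α, IsCommonSuperstring S U ∧ U.length = n}.Nonempty :=
    ⟨T.length, T, hsup, rfl⟩
  obtain ⟨U, hU, hlen⟩ := Nat.sInf_mem hne
  have := four_core hff hS hT (superstring_discard_of hU)
  unfold OPT
  omega

end Vale.Agent.Results.P333.GreedyFourStrings
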